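import Vale.Agent.P069.Defs
import Vale.Agent.P069.Main

open Vale.Agent.P069

/-- There is an infinite-dimensional reflexive real Banach space with an equivalent AMUC norm
and with no equivalent AUC norm. -/
theorem Vale.Agent.Results.P069.Disproof.result :
    ∃ (X : Type) (_ : NormedAddCommGroup X) (_ : NormedSpace ℝ X),
      CompleteSpace X ∧ ¬ FiniteDimensional ℝ X ∧
      Function.Surjective (NormedSpace.inclusionInDoubleDual ℝ X) ∧
      (∃ N : X → ℝ, IsEquivNorm N ∧ IsAMUC N) ∧
      ¬ (∃ N : X → ℝ, IsEquivNorm N ∧ IsAUC N) :=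
  ⟨XX, inferInstance, inferInstance, inferInstance, not_finiteDimensional, reflexive,
    ⟨_, isEquivNorm_norm, isAMUC_norm⟩, not_auc⟩
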